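import Mathlib

/-!
P295 (stable coordinate conjecture): the Venereau-type family `y + a x v + b x^2 w`.
-/

namespace Vale.Agent.Results.P295.VenereauFamily

open MvPolynomial

/-- the polynomial ring `R_4 = C[x,y,z,u]` -/
abbrev R4 : Type := MvPolynomial (Fin 4) ℂ

noncomputable def x : R4 := X 0
noncomputable def y : R4 := X 1
noncomputable def z : R4 := X 2
noncomputable def u : R4 := X 3
noncomputable def p : R4 := y * u + z ^ 2
noncomputable def v : R4 := x * z + y * p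
noncomputable def w : R4 := x ^ 2 * u - 2 * x * z * p - y * p ^ 2

/-- `f` is a coordinate of `R_4`: some `C`-algebra automorphism sends `f` to the first variable. -/
def IsCoord (f : R4) : Prop := ∃ φ : R4 ≃ₐ[ℂ] R4, φ f = X 0

/-- the subalgebra `C[x,w,p]` -/
noncomputable def Inv : Subalgebra ℂ R4 := Algebra.adjoin ℂ ({x, w, p} : Set R4)

section keys
variable {A : Type} [CommRing A] (x y z u s P : A)

theorem key_p :
    (y - 2 * x * s * (x * z + y * P) - x ^ 2 * s ^ 2 * (x ^ 2 * u - 2 * x * z * P - y * P ^ 2)) *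
      (u + 2 * s * P * (x * u - z * P) + s ^ 2 * (x ^ 2 * u - 2 * x * z * P - y * P ^ 2) * P ^ 2) +
      (z + s * ((x ^ 2 * u - 2 * x * z * P - y * P ^ 2) + 2 * (x * z + y * P) * P) +
        x * s ^ 2 * (x ^ 2 * u - 2 * x * z * P - y * P ^ 2) * P) ^ 2 = y * u + z ^ 2 := by
  ring

theorem key_v :
    x * (z + s * ((x ^ 2 * u - 2 * x * z * P - y * P ^ 2) + 2 * (x * z + y * P) * P) +
        x * s ^ 2 * (x ^ 2 * u - 2 * x * z * P - y * P ^ 2) * P) +
      (y - 2 * x * s * (x * z + y * P) - x ^ 2 * s ^ 2 * (x ^ 2 * u - 2 * x * z * P - y * P ^ 2)) * P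
      = (x * z + y * P) + x * s * (x ^ 2 * u - 2 * x * z * P - y * P ^ 2) := by
  ring

theorem key_w :
    x ^ 2 * (u + 2 * s * P * (x * u - z * P) + s ^ 2 * (x ^ 2 * u - 2 * x * z * P - y * P ^ 2) * P ^ 2)
      - 2 * x * (z + s * ((x ^ 2 * u - 2 * x * z * P - y * P ^ 2) + 2 * (x * z + y * P) * P) +
        x * s ^ 2 * (x ^ 2 * u - 2 * x * z * P - y * P ^ 2) * P) * P
      - (y - 2 * x * s * (x * z + y * P) - x ^ 2 * s ^ 2 * (x ^ 2 * u - 2 * x * z * P - y * P ^ 2)) * P ^ 2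
      = x ^ 2 * u - 2 * x * z * P - y * P ^ 2 := by
  ring

end keys

/-- the endomorphism `psi_s` -/
noncomputable def psiHom (s : R4) : R4 →ₐ[ℂ] R4 :=
  aeval ![x, y - 2 * x * s * v - x ^ 2 * s ^ 2 * w, z + s * (w + 2 * v * p) + x * s ^ 2 * w * p,
    u + 2 * s * p * (x * u - z * p) + s ^ 2 * w * p ^ 2]

theorem psi_x (s : R4) : psiHom s x = x := by simp [psiHom, x]
theorem psi_y (s : R4) : psiHom s y = y - 2 * x * s * v - x ^ 2 * s ^ 2 * w := by
  simp [psiHom, y]
theorem psi_z (s : R4) : psiHom s z = z + s * (w + 2 * v * p) + x * s ^ 2 * w * p := by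
  simp [psiHom, z]
theorem psi_u (s : R4) : psiHom s u = u + 2 * s * p * (x * u - z * p) + s ^ 2 * w * p ^ 2 := by
  simp [psiHom, u]

theorem psi_p (s : R4) : psiHom s p = p := by
  show psiHom s (y * u + z ^ 2) = p
  rw [map_add, map_mul, map_pow, psi_y, psi_z, psi_u]
  exact key_p x y z u s p

theorem psi_v (s : R4) : psiHom s v = v + x * s * w := by
  show psiHom s (x * z + y * p) = v + x * s * w
  rw [map_add, map_mul, map_mul, psi_x, psi_y, psi_z, psi_p]
  exact key_v x y z u s p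

theorem psi_w (s : R4) : psiHom s w = w := by
  show psiHom s (x ^ 2 * u - 2 * x * z * p - y * p ^ 2) = w
  simp only [map_sub, map_mul, map_pow, map_ofNat, psi_x, psi_y, psi_z, psi_u, psi_p]
  exact key_w x y z u s p

theorem psi_fix (s a : R4) (ha : a ∈ Inv) : psiHom s a = a := by
  have h : Inv ≤ AlgHom.equalizer (psiHom s) (AlgHom.id ℂ R4) := by
    refine Algebra.adjoin_le ?_
    intro t ht
    rcases ht with rfl | rfl | rfl
    · exact psi_x s
    · exact psi_w s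
    · exact psi_p s
  exact h ha


theorem key_u {A : Type} [CommRing A] (x y z u s P : A) :
    (u + 2 * (-s) * P * (x * u - z * P) + (-s) ^ 2 * (x ^ 2 * u - 2 * x * z * P - y * P ^ 2) * P ^ 2)
      + 2 * s * P * (x * (u + 2 * (-s) * P * (x * u - z * P)
          + (-s) ^ 2 * (x ^ 2 * u - 2 * x * z * P - y * P ^ 2) * P ^ 2)
        - (z + (-s) * ((x ^ 2 * u - 2 * x * z * P - y * P ^ 2) + 2 * (x * z + y * P) * P)
          + x * (-s) ^ 2 * (x ^ 2 * u - 2 * x * z * P - y * P ^ 2) * P) * P)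
      + s ^ 2 * (x ^ 2 * u - 2 * x * z * P - y * P ^ 2) * P ^ 2 = u := by
  ring

theorem psi_comp (s : R4) (hs : s ∈ Inv) :
    (psiHom (-s)).comp (psiHom s) = AlgHom.id ℂ R4 := by
  have hfix : psiHom (-s) s = s := psi_fix (-s) s hs
  apply MvPolynomial.algHom_ext
  intro i
  fin_cases i
  · show psiHom (-s) (psiHom s x) = x
    rw [psi_x, psi_x]
  · show psiHom (-s) (psiHom s y) = y
    rw [psi_y]
    simp only [map_sub, map_mul, map_pow, map_ofNat, psi_x, psi_y, psi_v, psi_w, hfix]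
    ring
  · show psiHom (-s) (psiHom s z) = z
    rw [psi_z]
    simp only [map_add, map_mul, map_pow, map_ofNat, psi_x, psi_z, psi_v, psi_w, psi_p, hfix]
    ring
  · show psiHom (-s) (psiHom s u) = u
    rw [psi_u]
    simp only [map_add, map_sub, map_mul, map_pow, map_ofNat, psi_x, psi_z, psi_u, psi_w, psi_p,
      hfix]
    exact key_u x y z u s p

/-- the automorphism `psi_s`, for `s` in `C[x,w,p]` -/
noncomputable def psiEquiv (s : R4) (hs : s ∈ Inv) : R4 ≃ₐ[ℂ] R4 :=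
  AlgEquiv.ofAlgHom (psiHom s) (psiHom (-s))
    (by
      have h := psi_comp (-s) (Inv.neg_mem hs)
      rwa [neg_neg] at h)
    (psi_comp s hs)

theorem psiEquiv_apply (s : R4) (hs : s ∈ Inv) (a : R4) : psiEquiv s hs a = psiHom s a := rfl

theorem isCoord_map (φ : R4 ≃ₐ[ℂ] R4) (f : R4) : IsCoord (φ f) ↔ IsCoord f := by
  constructor
  · rintro ⟨θ, hθ⟩
    exact ⟨φ.trans θ, by simpa using hθ⟩
  · rintro ⟨θ, hθ⟩
    exact ⟨φ.symm.trans θ, by simpa using hθ⟩

theorem isCoord_y : IsCoord y :=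
  ⟨MvPolynomial.renameEquiv ℂ (Equiv.swap (0 : Fin 4) 1), by simp [y]⟩

/-- diagonal scaling -/
noncomputable def diagHom (d : Fin 4 → ℂ) : R4 →ₐ[ℂ] R4 := aeval (fun i => C (d i) * X i)

theorem diag_comp (d e : Fin 4 → ℂ) (h : ∀ i, d i * e i = 1) :
    (diagHom d).comp (diagHom e) = AlgHom.id ℂ R4 := by
  apply MvPolynomial.algHom_ext
  intro i
  simp only [diagHom, AlgHom.comp_apply, aeval_X, map_mul, AlgHom.id_apply, algHom_C,
    algebraMap_eq]
  rw [← mul_assoc, ← C_mul, mul_comm (e i), h i, C_1, one_mul]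

noncomputable def diagEquiv (d e : Fin 4 → ℂ) (h : ∀ i, d i * e i = 1) : R4 ≃ₐ[ℂ] R4 :=
  AlgEquiv.ofAlgHom (diagHom d) (diagHom e) (diag_comp d e h)
    (diag_comp e d (fun i => by rw [mul_comm]; exact h i))

theorem isCoord_smul (c : ℂ) (hc : c ≠ 0) (f : R4) : IsCoord (C c * f) ↔ IsCoord f := by
  have key : ∀ (c : ℂ), c ≠ 0 → ∀ f : R4, IsCoord f → IsCoord (C c * f) := by
    intro c hc f hf
    obtain ⟨θ, hθ⟩ := hf
    refine ⟨θ.trans (diagEquiv ![c⁻¹, 1, 1, 1] ![c, 1, 1, 1] ?_), ?_⟩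
    · intro i
      fin_cases i <;> simp [hc]
    · show diagHom ![c⁻¹, 1, 1, 1] (θ (C c * f)) = X 0
      rw [map_mul, hθ]
      have h1 : θ (C c) = C c := by
        have := θ.commutes c
        simpa [algebraMap_eq] using this
      rw [h1]
      simp only [diagHom, map_mul, aeval_X, algHom_C, algebraMap_eq]
      rw [← mul_assoc, ← C_mul]
      simp [hc]
  constructor
  · intro h
    have := key c⁻¹ (inv_ne_zero hc) _ h
    rwa [← mul_assoc, ← C_mul, inv_mul_cancel₀ hc, C_1, one_mul] at this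
  · exact key c hc f


theorem mem_x : x ∈ Inv := Algebra.subset_adjoin (by simp)
theorem mem_C (c : ℂ) : (C c : R4) ∈ Inv := Inv.algebraMap_mem c

/-- the transformation rule of the family under `psi_s` -/
theorem psi_family (a b s : R4) (ha : a ∈ Inv) (hb : b ∈ Inv) (hs : s ∈ Inv) :
    psiEquiv s hs (y + a * x * v + b * x ^ 2 * w)
      = y + (a - 2 * s) * x * v + (b + a * s - s ^ 2) * x ^ 2 * w := by
  rw [psiEquiv_apply]
  simp only [map_add, map_mul, map_pow, psi_x, psi_y, psi_v, psi_w, psi_fix s a ha,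
    psi_fix s b hb]
  ring

section scaling
variable (c : ℂ) (hc : c ≠ 0)

noncomputable def thetaEquiv (c : ℂ) (hc : c ≠ 0) : R4 ≃ₐ[ℂ] R4 :=
  diagEquiv ![1, c, c⁻¹, c⁻¹ ^ 3] ![1, c⁻¹, c, c ^ 3] (by
    intro i
    fin_cases i <;> simp [hc])

theorem theta_x : thetaEquiv c hc x = x := by
  show diagHom _ x = x
  simp [diagHom, x]
theorem theta_y : thetaEquiv c hc y = C c * y := by
  show diagHom _ y = _
  simp [diagHom, y]
theorem theta_z : thetaEquiv c hc z = C c⁻¹ * z := by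
  show diagHom _ z = _
  simp [diagHom, z]
theorem theta_u : thetaEquiv c hc u = C (c⁻¹ ^ 3) * u := by
  show diagHom _ u = _
  simp [diagHom, u]

include hc in
theorem C_rel : (C c : R4) * C c⁻¹ = 1 := by
  rw [← C_mul, mul_inv_cancel₀ hc, C_1]

theorem theta_p : thetaEquiv c hc p = C c⁻¹ ^ 2 * p := by
  show thetaEquiv c hc (y * u + z ^ 2) = C c⁻¹ ^ 2 * (y * u + z ^ 2)
  rw [map_add, map_mul, map_pow, theta_y, theta_z, theta_u, C_pow]
  linear_combination (C c⁻¹ ^ 2 * y * u) * C_rel c hc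

theorem theta_w : thetaEquiv c hc w = C c⁻¹ ^ 3 * w := by
  show thetaEquiv c hc (x ^ 2 * u - 2 * x * z * p - y * p ^ 2)
    = C c⁻¹ ^ 3 * (x ^ 2 * u - 2 * x * z * p - y * p ^ 2)
  simp only [map_sub, map_mul, map_pow, map_ofNat, theta_x, theta_y, theta_z, theta_u, theta_p]
  linear_combination (- C c⁻¹ ^ 3 * y * p ^ 2) * C_rel c hc

end scaling

theorem theta_family (c : ℂ) (hc : c ≠ 0) (b : ℂ) :
    thetaEquiv c hc (y + C (b * c ^ 4) * x ^ 2 * w) = C c * (y + C b * x ^ 2 * w) := by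
  have hC : thetaEquiv c hc (C (b * c ^ 4)) = C (b * c ^ 4) := by
    have := (thetaEquiv c hc).commutes (b * c ^ 4)
    simpa [algebraMap_eq] using this
  rw [map_add, map_mul, map_mul, map_pow, theta_x, theta_y, theta_w, hC, C_mul, C_pow]
  linear_combination (C b * C c * x ^ 2 * w * (C c ^ 2 * C c⁻¹ ^ 2 + C c * C c⁻¹ + 1)) * C_rel c hc

/-- **Result.** With `p = yu+z^2`, `v = xz+yp`, `w = x^2u-2xzp-yp^2` in `C[x,y,z,u]`:
(1) for `a, b, s` in `C[x,w,p]` an automorphism fixing `x` maps `y + a x v + b x^2 w` to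
`y + (a-2s) x v + (b+as-s^2) x^2 w`;
(2) `y - 2 s x v - s^2 x^2 w` is a coordinate for every `s` in `C[x,w,p]`;
(3) for complex `a, b` with `a^2+4b = 0`, `y + a x v + b x^2 w` is a coordinate;
(4) for complex `a, b` with `a^2+4b ≠ 0`, `y + a x v + b x^2 w` is a coordinate if and only if
the first Venereau polynomial `y + x v` is. -/
theorem result :
    (∀ a ∈ Inv, ∀ b ∈ Inv, ∀ s ∈ Inv, ∃ φ : R4 ≃ₐ[ℂ] R4, φ x = x ∧
      φ (y + a * x * v + b * x ^ 2 * w)
        = y + (a - 2 * s) * x * v + (b + a * s - s ^ 2) * x ^ 2 * w) ∧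
    (∀ s ∈ Inv, IsCoord (y - 2 * s * x * v - s ^ 2 * x ^ 2 * w)) ∧
    (∀ a b : ℂ, a ^ 2 + 4 * b = 0 → IsCoord (y + C a * x * v + C b * x ^ 2 * w)) ∧
    (∀ a b : ℂ, a ^ 2 + 4 * b ≠ 0 →
      (IsCoord (y + C a * x * v + C b * x ^ 2 * w) ↔ IsCoord (y + x * v))) := by
  have h2 : ∀ s ∈ Inv, IsCoord (y - 2 * s * x * v - s ^ 2 * x ^ 2 * w) := by
    intro s hs
    have h := psi_family 0 0 s Inv.zero_mem Inv.zero_mem hs
    have h' : psiEquiv s hs y = y - 2 * s * x * v - s ^ 2 * x ^ 2 * w := by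
      have e1 : (y + 0 * x * v + 0 * x ^ 2 * w : R4) = y := by ring
      rw [e1] at h
      rw [h]
      ring
    rw [← h']
    exact (isCoord_map _ _).2 isCoord_y
  -- normal form: (a, b) is equivalent to (0, (a^2+4b)/4)
  have hnf : ∀ a b : ℂ, IsCoord (y + C a * x * v + C b * x ^ 2 * w)
      ↔ IsCoord (y + C ((a ^ 2 + 4 * b) / 4) * x ^ 2 * w) := by
    intro a b
    have h := psi_family (C a) (C b) (C (a / 2)) (mem_C a) (mem_C b) (mem_C (a / 2))
    have e : (y + (C a - 2 * C (a / 2)) * x * v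
        + (C b + C a * C (a / 2) - C (a / 2) ^ 2) * x ^ 2 * w : R4)
        = y + C ((a ^ 2 + 4 * b) / 4) * x ^ 2 * w := by
      have e1 : (C a - 2 * C (a / 2) : R4) = 0 := by
        have : (2 : R4) = C 2 := (map_ofNat C 2).symm
        rw [this, ← C_mul, ← C_sub]
        have : a - 2 * (a / 2) = 0 := by ring
        rw [this, C_0]
      have e2 : (C b + C a * C (a / 2) - C (a / 2) ^ 2 : R4) = C ((a ^ 2 + 4 * b) / 4) := by
        rw [← C_mul, ← C_pow, ← C_add, ← C_sub]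
        congr 1
        ring
      rw [e1, e2]
      ring
    rw [e] at h
    rw [← h]
    exact (isCoord_map _ _).symm
  refine ⟨?_, h2, ?_, ?_⟩
  · intro a ha b hb s hs
    exact ⟨psiEquiv s hs, by rw [psiEquiv_apply, psi_x], psi_family a b s ha hb hs⟩
  · intro a b hab
    rw [hnf a b, hab]
    have : (y + C ((0 : ℂ) / 4) * x ^ 2 * w : R4) = y := by simp
    rw [this]
    exact isCoord_y
  · intro a b hab
    obtain ⟨c, hc4⟩ := IsAlgClosed.exists_pow_nat_eq (a ^ 2 + 4 * b) (n := 4) (by norm_num)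
    have hc : c ≠ 0 := by
      rintro rfl
      apply hab
      rw [← hc4]
      norm_num
    have hb1 : IsCoord (y + x * v) ↔ IsCoord (y + C (1 / 4 : ℂ) * x ^ 2 * w) := by
      have h := hnf 1 0
      have e1 : (y + C (1 : ℂ) * x * v + C (0 : ℂ) * x ^ 2 * w : R4) = y + x * v := by simp
      have e2 : ((1 : ℂ) ^ 2 + 4 * 0) / 4 = 1 / 4 := by norm_num
      rw [e1, e2] at h
      exact h
    rw [hnf a b, hb1]
    have h := theta_family c hc (1 / 4)
    have e3 : (1 / 4 : ℂ) * c ^ 4 = (a ^ 2 + 4 * b) / 4 := by rw [hc4]; ring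
    rw [e3] at h
    rw [← isCoord_map (thetaEquiv c hc), h, isCoord_smul c hc]

end Vale.Agent.Results.P295.VenereauFamily
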