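import Mathlib
import Vale.Agent.Results.P295.VenereauFamily

/-!
P295 (stable coordinate conjecture): Venereau-type polynomials
`y + a x v + b x^2 w + x^3 G` are classified, up to automorphisms over `C[x]`, by the
discriminant `a^2 + 4 b` modulo `x`.
-/

namespace Vale.Agent.Results.P295.VenereauDiscriminant

open MvPolynomial
open Vale.Agent.Results.P295.VenereauFamily

/-- the subalgebra `C[x,w]` -/
noncomputable def Axw : Subalgebra ℂ R4 := Algebra.adjoin ℂ ({x, w} : Set R4)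

/-- the subalgebra `C[x,v,w]` -/
noncomputable def Axvw : Subalgebra ℂ R4 := Algebra.adjoin ℂ ({x, v, w} : Set R4)

theorem Axw_le_Inv : Axw ≤ VenereauFamily.Inv := by
  refine Algebra.adjoin_mono ?_
  intro t ht
  rcases ht with rfl | rfl
  · simp
  · simp

theorem Axw_le_Axvw : Axw ≤ Axvw := by
  refine Algebra.adjoin_mono ?_
  intro t ht
  rcases ht with rfl | rfl
  · simp
  · simp

theorem hp : p = y * u + z ^ 2 := rfl
theorem hv : v = x * z + y * p := rfl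
theorem hw : w = x ^ 2 * u - 2 * x * z * p - y * p ^ 2 := rfl

/-- the endomorphism `E_G`: in the coordinates y, v, w it is the map sending y to y + x^3 G -/
noncomputable def EHom (G : R4) : R4 →ₐ[ℂ] R4 :=
  aeval ![x, y + x ^ 3 * G, z - y * G * w - x ^ 2 * G * p - x ^ 3 * G ^ 2 * w,
    u + 2 * z * G * w - y * G ^ 2 * w ^ 2 - x * G * p ^ 2 - 2 * x ^ 2 * G ^ 2 * w * p
      - x ^ 3 * G ^ 3 * w ^ 2]

theorem E_x (G : R4) : EHom G x = x := by simp [EHom, x]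
theorem E_y (G : R4) : EHom G y = y + x ^ 3 * G := by simp [EHom, y]
theorem E_z (G : R4) : EHom G z = z - y * G * w - x ^ 2 * G * p - x ^ 3 * G ^ 2 * w := by
  simp [EHom, z]
theorem E_u (G : R4) : EHom G u = u + 2 * z * G * w - y * G ^ 2 * w ^ 2 - x * G * p ^ 2
    - 2 * x ^ 2 * G ^ 2 * w * p - x ^ 3 * G ^ 3 * w ^ 2 := by
  simp [EHom, u]

theorem E_p (G : R4) : EHom G p = p + x * G * w := by
  show EHom G (y * u + z ^ 2) = p + x * G * w
  rw [map_add, map_mul, map_pow, E_y, E_z, E_u]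
  rw [hw, hp]
  ring

theorem E_v (G : R4) : EHom G v = v := by
  show EHom G (x * z + y * p) = v
  rw [map_add, map_mul, map_mul, E_x, E_y, E_z, E_p, hv]
  ring

theorem E_w (G : R4) : EHom G w = w := by
  show EHom G (x ^ 2 * u - 2 * x * z * p - y * p ^ 2) = w
  simp only [map_sub, map_mul, map_pow, map_ofNat, E_x, E_y, E_z, E_u, E_p]
  rw [hw, hp]
  ring

theorem E_fix (G t : R4) (ht : t ∈ Axvw) : EHom G t = t := by
  have h : Axvw ≤ AlgHom.equalizer (EHom G) (AlgHom.id ℂ R4) := by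
    refine Algebra.adjoin_le ?_
    intro t ht
    rcases ht with rfl | rfl | rfl
    · exact E_x G
    · exact E_v G
    · exact E_w G
  exact h ht

theorem E_comp (G : R4) (hG : G ∈ Axvw) :
    (EHom (-G)).comp (EHom G) = AlgHom.id ℂ R4 := by
  have hfix : EHom (-G) G = G := E_fix (-G) G hG
  apply MvPolynomial.algHom_ext
  intro i
  fin_cases i
  · show EHom (-G) (EHom G x) = x
    rw [E_x, E_x]
  · show EHom (-G) (EHom G y) = y
    rw [E_y]
    simp only [map_add, map_mul, map_pow, E_x, E_y, hfix]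
    ring
  · show EHom (-G) (EHom G z) = z
    rw [E_z]
    simp only [map_sub, map_mul, map_pow, E_x, E_y, E_z, E_w, E_p, hfix]
    ring
  · show EHom (-G) (EHom G u) = u
    rw [E_u]
    simp only [map_add, map_sub, map_mul, map_pow, map_ofNat, E_x, E_y, E_z, E_u, E_w, E_p, hfix]
    ring

/-- the automorphism `E_G`, for `G` in `C[x,v,w]` -/
noncomputable def EEquiv (G : R4) (hG : G ∈ Axvw) : R4 ≃ₐ[ℂ] R4 :=
  AlgEquiv.ofAlgHom (EHom G) (EHom (-G))
    (by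
      have h := E_comp (-G) (Axvw.neg_mem hG)
      rwa [neg_neg] at h)
    (E_comp G hG)

theorem EEquiv_apply (G : R4) (hG : G ∈ Axvw) (t : R4) : EEquiv G hG t = EHom G t := rfl

theorem E_family (a b G : R4) (ha : a ∈ Axvw) (hb : b ∈ Axvw) (hG : G ∈ Axvw) :
    EEquiv G hG (y + a * x * v + b * x ^ 2 * w) = y + a * x * v + b * x ^ 2 * w + x ^ 3 * G := by
  rw [EEquiv_apply]
  simp only [map_add, map_mul, map_pow, E_x, E_y, E_v, E_w, E_fix G a ha, E_fix G b hb]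
  ring

theorem E_family' (a b G : R4) (ha : a ∈ Axvw) (hb : b ∈ Axvw) (hG : G ∈ Axvw) :
    EEquiv (-G) (Axvw.neg_mem hG) (y + a * x * v + b * x ^ 2 * w + x ^ 3 * G)
      = y + a * x * v + b * x ^ 2 * w := by
  rw [EEquiv_apply]
  simp only [map_add, map_mul, map_pow, E_x, E_y, E_v, E_w, E_fix (-G) a ha, E_fix (-G) b hb,
    E_fix (-G) G hG]
  ring

theorem two_half : (2 : R4) * C (1 / 2 : ℂ) = 1 := by
  rw [← map_ofNat C 2, ← C_mul]
  norm_num

theorem memw_x : x ∈ Axw := Algebra.subset_adjoin (by simp)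
theorem memw_w : w ∈ Axw := Algebra.subset_adjoin (by simp)
theorem memw_C (c : ℂ) : (C c : R4) ∈ Axw := Axw.algebraMap_mem c

/-- normal form: the pair a, b is equivalent to the pair 0, (a/2)^2 + b -/
theorem to_normal (a b : R4) (ha : a ∈ Axw) (hb : b ∈ Axw) :
    ∃ φ : R4 ≃ₐ[ℂ] R4, φ x = x ∧
      φ (y + a * x * v + b * x ^ 2 * w) = y + (b + (C (1 / 2 : ℂ) * a) ^ 2) * x ^ 2 * w := by
  have hs : C (1 / 2 : ℂ) * a ∈ VenereauFamily.Inv :=
    Axw_le_Inv (Axw.mul_mem (memw_C _) ha)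
  refine ⟨psiEquiv (C (1 / 2 : ℂ) * a) hs, by rw [psiEquiv_apply, psi_x], ?_⟩
  rw [psi_family a b _ (Axw_le_Inv ha) (Axw_le_Inv hb) hs]
  linear_combination (-(a * x * v) - a ^ 2 * C (1 / 2 : ℂ) * x ^ 2 * w) * two_half

/-- **Classification by the discriminant modulo `x`.** -/
theorem family_equiv (a b a' b' h G G' : R4) (ha : a ∈ Axw) (hb : b ∈ Axw) (ha' : a' ∈ Axw)
    (hb' : b' ∈ Axw) (hh : h ∈ Axw) (hG : G ∈ Axvw) (hG' : G' ∈ Axvw)
    (hD : a' ^ 2 + 4 * b' = a ^ 2 + 4 * b + x * h) :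
    ∃ φ : R4 ≃ₐ[ℂ] R4, φ x = x ∧
      φ (y + a * x * v + b * x ^ 2 * w + x ^ 3 * G)
        = y + a' * x * v + b' * x ^ 2 * w + x ^ 3 * G' := by
  obtain ⟨φ1, h1x, h1⟩ := to_normal a b ha hb
  obtain ⟨φ2, h2x, h2⟩ := to_normal a' b' ha' hb'
  have hG1 : C (1 / 2 : ℂ) ^ 2 * h * w ∈ Axvw :=
    Axw_le_Axvw (Axw.mul_mem (Axw.mul_mem (Axw.pow_mem (memw_C _) 2) hh) memw_w)
  have hB : b + (C (1 / 2 : ℂ) * a) ^ 2 ∈ Axvw :=
    Axw_le_Axvw (Axw.add_mem hb (Axw.pow_mem (Axw.mul_mem (memw_C _) ha) 2))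
  have e0 := E_family' a b G (Axw_le_Axvw ha) (Axw_le_Axvw hb) hG
  have e3 := E_family 0 (b + (C (1 / 2 : ℂ) * a) ^ 2) _ Axvw.zero_mem hB hG1
  have e5 := E_family a' b' G' (Axw_le_Axvw ha') (Axw_le_Axvw hb') hG'
  have key : (y + 0 * x * v + (b + (C (1 / 2 : ℂ) * a) ^ 2) * x ^ 2 * w
      + x ^ 3 * (C (1 / 2 : ℂ) ^ 2 * h * w) : R4)
      = y + (b' + (C (1 / 2 : ℂ) * a') ^ 2) * x ^ 2 * w := by
    have h4 : (4 : R4) * C (1 / 2 : ℂ) ^ 2 = 1 := by
      linear_combination (2 * C (1 / 2 : ℂ) + 1) * two_half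
    linear_combination (-(C (1 / 2 : ℂ) ^ 2 * x ^ 2 * w)) * hD
      - ((b - b') * x ^ 2 * w) * h4
  refine ⟨(((EEquiv (-G) (Axvw.neg_mem hG)).trans φ1).trans
      (EEquiv _ hG1)).trans (φ2.symm.trans (EEquiv G' hG')), ?_, ?_⟩
  · have hs2 : φ2.symm x = x := by
      rw [AlgEquiv.symm_apply_eq, h2x]
    simp only [AlgEquiv.trans_apply, EEquiv_apply, E_x, h1x, hs2]
  · simp only [AlgEquiv.trans_apply]
    rw [e0, h1]
    have e3' : EEquiv _ hG1 (y + (b + (C (1 / 2 : ℂ) * a) ^ 2) * x ^ 2 * w)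
        = y + (b' + (C (1 / 2 : ℂ) * a') ^ 2) * x ^ 2 * w := by
      rw [← key, ← e3]
      congr 1
      ring
    rw [e3', ← h2, AlgEquiv.symm_apply_apply, e5]

/-- **Result.** With `p = yu+z^2`, `v = xz+yp`, `w = x^2u-2xzp-yp^2` in `C[x,y,z,u]`, consider
`F = y + a x v + b x^2 w + x^3 G` with `a, b` in `C[x,w]` and `G` in `C[x,v,w]`.
(A) two such polynomials whose discriminants `a^2+4b` agree modulo `x C[x,w]` are mapped to one
another by an automorphism fixing `x`;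
(B) if `x` divides `a^2+4b` then `F` is the image of `y` under an automorphism fixing `x`, so a
coordinate;
(C) in particular all Venereau polynomials `y + x^m v`, `m >= 2`, are coordinates;
(D) if `a^2+4b` is a nonzero constant modulo `x`, then `F` is a coordinate if and only if the
first Venereau polynomial `y + x v` is. -/
theorem result :
    (∀ a ∈ Axw, ∀ b ∈ Axw, ∀ a' ∈ Axw, ∀ b' ∈ Axw, ∀ h ∈ Axw, ∀ G ∈ Axvw, ∀ G' ∈ Axvw,
      a' ^ 2 + 4 * b' = a ^ 2 + 4 * b + x * h →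
      ∃ φ : R4 ≃ₐ[ℂ] R4, φ x = x ∧
        φ (y + a * x * v + b * x ^ 2 * w + x ^ 3 * G)
          = y + a' * x * v + b' * x ^ 2 * w + x ^ 3 * G') ∧
    (∀ a ∈ Axw, ∀ b ∈ Axw, ∀ h ∈ Axw, ∀ G ∈ Axvw, a ^ 2 + 4 * b = x * h →
      (∃ φ : R4 ≃ₐ[ℂ] R4, φ x = x ∧ φ y = y + a * x * v + b * x ^ 2 * w + x ^ 3 * G) ∧
      IsCoord (y + a * x * v + b * x ^ 2 * w + x ^ 3 * G)) ∧
    (∀ m : ℕ, 2 ≤ m → IsCoord (y + x ^ m * v)) ∧
    (∀ a ∈ Axw, ∀ b ∈ Axw, ∀ h ∈ Axw, ∀ G ∈ Axvw, ∀ c : ℂ, c ≠ 0 →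
      a ^ 2 + 4 * b = C c + x * h →
      (IsCoord (y + a * x * v + b * x ^ 2 * w + x ^ 3 * G) ↔ IsCoord (y + x * v))) := by
  have hB : ∀ a ∈ Axw, ∀ b ∈ Axw, ∀ h ∈ Axw, ∀ G ∈ Axvw, a ^ 2 + 4 * b = x * h →
      (∃ φ : R4 ≃ₐ[ℂ] R4, φ x = x ∧ φ y = y + a * x * v + b * x ^ 2 * w + x ^ 3 * G) ∧
      IsCoord (y + a * x * v + b * x ^ 2 * w + x ^ 3 * G) := by
    intro a ha b hb h hh G hG hD
    obtain ⟨φ, hx, hφ⟩ := family_equiv 0 0 a b h 0 G Axw.zero_mem Axw.zero_mem ha hb hh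
      Axvw.zero_mem hG (by rw [hD]; ring)
    have e : (y + 0 * x * v + 0 * x ^ 2 * w + x ^ 3 * 0 : R4) = y := by ring
    rw [e] at hφ
    refine ⟨⟨φ, hx, hφ⟩, ?_⟩
    rw [← hφ]
    exact (isCoord_map _ _).2 isCoord_y
  refine ⟨?_, hB, ?_, ?_⟩
  · intro a ha b hb a' ha' b' hb' h hh G hG G' hG' hD
    exact family_equiv a b a' b' h G G' ha hb ha' hb' hh hG hG' hD
  · intro m hm
    obtain ⟨k, rfl⟩ := Nat.exists_eq_add_of_le hm
    have h := (hB (x ^ (k + 1)) (Axw.pow_mem memw_x _) 0 Axw.zero_mem (x ^ (2 * k + 1))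
      (Axw.pow_mem memw_x _) 0 Axvw.zero_mem (by ring)).2
    have e : (y + x ^ (k + 1) * x * v + 0 * x ^ 2 * w + x ^ 3 * 0 : R4) = y + x ^ (2 + k) * v := by
      ring
    rwa [e] at h
  · intro a ha b hb h hh G hG c hc hD
    have h4 : (4 : R4) * C (c / 4) = C c := by
      rw [← map_ofNat C 4, ← C_mul]
      congr 1
      ring
    obtain ⟨φ, -, hφ⟩ := family_equiv a b 0 (C (c / 4)) (-h) G 0 ha hb Axw.zero_mem (memw_C _)
      (Axw.neg_mem hh) hG Axvw.zero_mem (by rw [hD, h4]; ring)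
    rw [← isCoord_map φ, hφ]
    have h1 := VenereauFamily.result.2.2.2 0 (c / 4) (by
      intro h0
      apply hc
      linear_combination h0)
    have e : (y + 0 * x * v + C (c / 4) * x ^ 2 * w + x ^ 3 * 0 : R4)
        = y + C (0 : ℂ) * x * v + C (c / 4) * x ^ 2 * w := by
      rw [C_0]
      ring
    rw [e]
    exact h1

end Vale.Agent.Results.P295.VenereauDiscriminant
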