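import Mathlib
import Vale.Agent.Results.P295.VenereauDiscriminant
import Vale.Agent.Lib.P295.OddFamily

/-!
P295 (stable coordinate conjecture): a large family of Venereau-type polynomials that are
coordinates, and a large family equivalent to the first Venereau polynomial.
-/

namespace Vale.Agent.Results.P295.VenereauOddFamily

open MvPolynomial
open Vale.Agent.Results.P295.VenereauFamily
open Vale.Agent.Results.P295.VenereauDiscriminant
open Vale.Agent.Lib.P295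

/-- `y + 2 x v R(v^2) - x^2 w (R(v^2)^2 + 4 v^2 R(v^2) R'(v^2)) + x^2 d w + x^3 G` -/
noncomputable def Fam (R : Polynomial R4) (d G : R4) : R4 :=
  y + 2 * x * v * R.eval (v ^ 2)
    - x ^ 2 * w * ((R.eval (v ^ 2)) ^ 2
      + 4 * v ^ 2 * R.eval (v ^ 2) * (Polynomial.derivative R).eval (v ^ 2))
    + x ^ 2 * d * w + x ^ 3 * G

theorem memv_v : v ∈ Axvw := Algebra.subset_adjoin (by simp)

theorem eval_mem (Q : Polynomial R4) (hQ : ∀ n, Q.coeff n ∈ Axw) (t : R4) (ht : t ∈ Axvw) :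
    Q.eval t ∈ Axvw := by
  rw [Polynomial.eval_eq_sum_range]
  exact Axvw.sum_mem (fun i _ => Axvw.mul_mem (Axw_le_Axvw (hQ i)) (Axvw.pow_mem ht i))

theorem coeff_derivative_mem (Q : Polynomial R4) (hQ : ∀ n, Q.coeff n ∈ Axw) (n : ℕ) :
    (Polynomial.derivative Q).coeff n ∈ Axw := by
  rw [Polynomial.coeff_derivative]
  exact Axw.mul_mem (hQ _) (Axw.add_mem (natCast_mem Axw n) Axw.one_mem)

theorem main_equiv (R : Polynomial R4) (hR : ∀ n, R.coeff n ∈ Axw) (d : R4) (hd : d ∈ Axw)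
    (G : R4) (hG : G ∈ Axvw) :
    ∃ φ : R4 ≃ₐ[ℂ] R4, φ x = x ∧ φ (y + x ^ 2 * d * w) = Fam R d G := by
  obtain ⟨φ, hx, hw', hy⟩ := odd_family R hR
  have hdφ : φ d = d := fix_Axw φ.toAlgHom hx hw' d hd
  have hr : R.eval (v ^ 2) ∈ Axvw := eval_mem R hR _ (Axvw.pow_mem memv_v 2)
  have hr' : (Polynomial.derivative R).eval (v ^ 2) ∈ Axvw :=
    eval_mem _ (coeff_derivative_mem R hR) _ (Axvw.pow_mem memv_v 2)
  refine ⟨φ.trans (EEquiv G hG), ?_, ?_⟩
  · rw [AlgEquiv.trans_apply, hx, EEquiv_apply, E_x]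
  · rw [AlgEquiv.trans_apply, map_add, map_mul, map_mul, map_pow, hx, hw', hy, hdφ, EEquiv_apply]
    unfold Hof Fam
    simp only [map_add, map_sub, map_mul, map_pow, map_ofNat, E_x, E_y, E_v, E_w,
      E_fix G _ hr, E_fix G _ hr', E_fix G d (Axw_le_Axvw hd)]
    ring

/-- **Result.** With `p = yu+z^2`, `v = xz+yp`, `w = x^2u-2xzp-yp^2` in `C[x,y,z,u]`, let `R` be a
polynomial in one variable with coefficients in `C[x,w]`, `d` in `C[x,w]`, `G` in `C[x,v,w]` and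
`Fam R d G = y + 2xvR(v^2) - x^2 w (R(v^2)^2 + 4v^2 R(v^2)R'(v^2)) + x^2 d w + x^3 G`.
(1) an automorphism fixing `x` sends `y + x^2 d w` to `Fam R d G`;
(2) `Fam R 0 G` is the image of `y` under an automorphism fixing `x`, so it is a coordinate;
(3) `y + x^2 v Q(v^2) + x^3 G` is a coordinate for every polynomial `Q` with coefficients in
`C[x,w]`;
(4) for a nonzero complex number `c`, `Fam R c G` is a coordinate if and only if the first
Venereau polynomial `y + x v` is. -/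
theorem result :
    (∀ R : Polynomial R4, (∀ n, R.coeff n ∈ Axw) → ∀ d ∈ Axw, ∀ G ∈ Axvw,
      ∃ φ : R4 ≃ₐ[ℂ] R4, φ x = x ∧ φ (y + x ^ 2 * d * w) = Fam R d G) ∧
    (∀ R : Polynomial R4, (∀ n, R.coeff n ∈ Axw) → ∀ G ∈ Axvw,
      (∃ φ : R4 ≃ₐ[ℂ] R4, φ x = x ∧ φ y = Fam R 0 G) ∧ IsCoord (Fam R 0 G)) ∧
    (∀ Q : Polynomial R4, (∀ n, Q.coeff n ∈ Axw) → ∀ G ∈ Axvw,
      IsCoord (y + x ^ 2 * v * Q.eval (v ^ 2) + x ^ 3 * G)) ∧
    (∀ R : Polynomial R4, (∀ n, R.coeff n ∈ Axw) → ∀ G ∈ Axvw, ∀ c : ℂ, c ≠ 0 →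
      (IsCoord (Fam R (C c) G) ↔ IsCoord (y + x * v))) := by
  have h2 : ∀ R : Polynomial R4, (∀ n, R.coeff n ∈ Axw) → ∀ G ∈ Axvw,
      (∃ φ : R4 ≃ₐ[ℂ] R4, φ x = x ∧ φ y = Fam R 0 G) ∧ IsCoord (Fam R 0 G) := by
    intro R hR G hG
    obtain ⟨φ, hx, hφ⟩ := main_equiv R hR 0 Axw.zero_mem G hG
    have e : (y + x ^ 2 * 0 * w : R4) = y := by ring
    rw [e] at hφ
    refine ⟨⟨φ, hx, hφ⟩, ?_⟩
    rw [← hφ]
    exact (isCoord_map _ _).2 isCoord_y
  refine ⟨fun R hR d hd G hG => main_equiv R hR d hd G hG, h2, ?_, ?_⟩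
  · intro Q hQ G hG
    have hq : Q.eval (v ^ 2) ∈ Axvw := eval_mem Q hQ _ (Axvw.pow_mem memv_v 2)
    have hq' : (Polynomial.derivative Q).eval (v ^ 2) ∈ Axvw :=
      eval_mem _ (coeff_derivative_mem Q hQ) _ (Axvw.pow_mem memv_v 2)
    have hxv : x ∈ Axvw := Axw_le_Axvw memw_x
    have hwv : w ∈ Axvw := Axw_le_Axvw memw_w
    have hcv : (C (1 / 2 : ℂ) : R4) ∈ Axvw := Axw_le_Axvw (memw_C _)
    have hR : ∀ n, (Polynomial.C (x * C (1 / 2 : ℂ)) * Q).coeff n ∈ Axw := by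
      intro n
      rw [Polynomial.coeff_C_mul]
      exact Axw.mul_mem (Axw.mul_mem memw_x (memw_C _)) (hQ n)
    have hG' : G + x * C (1 / 2 : ℂ) ^ 2 * w * ((Q.eval (v ^ 2)) ^ 2
        + 4 * v ^ 2 * Q.eval (v ^ 2) * (Polynomial.derivative Q).eval (v ^ 2)) ∈ Axvw := by
      refine Axvw.add_mem hG (Axvw.mul_mem (Axvw.mul_mem (Axvw.mul_mem hxv (Axvw.pow_mem hcv 2)) hwv)
        (Axvw.add_mem (Axvw.pow_mem hq 2) (Axvw.mul_mem (Axvw.mul_mem (Axvw.mul_mem ?_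
          (Axvw.pow_mem memv_v 2)) hq) hq')))
      exact ofNat_mem Axvw 4
    have h := (h2 _ hR _ hG').2
    have e : Fam (Polynomial.C (x * C (1 / 2 : ℂ)) * Q) 0
        (G + x * C (1 / 2 : ℂ) ^ 2 * w * ((Q.eval (v ^ 2)) ^ 2
          + 4 * v ^ 2 * Q.eval (v ^ 2) * (Polynomial.derivative Q).eval (v ^ 2)))
        = y + x ^ 2 * v * Q.eval (v ^ 2) + x ^ 3 * G := by
      unfold Fam
      rw [Polynomial.derivative_C_mul, Polynomial.eval_C_mul, Polynomial.eval_C_mul]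
      linear_combination (x ^ 2 * v * Q.eval (v ^ 2)) * two_half
    rwa [e] at h
  · intro R hR G hG c hc
    obtain ⟨φ, -, hφ⟩ := main_equiv R hR (C c) (memw_C c) G hG
    rw [← hφ, isCoord_map]
    have h := VenereauDiscriminant.result.2.2.2 0 Axw.zero_mem (C c) (memw_C c) 0 Axw.zero_mem 0
      Axvw.zero_mem (4 * c) (by simpa using hc) (by
        rw [C_mul]
        have : (C (4 : ℂ) : R4) = 4 := map_ofNat C 4
        rw [this]
        ring)
    have e : (y + 0 * x * v + C c * x ^ 2 * w + x ^ 3 * 0 : R4) = y + x ^ 2 * C c * w := by ring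
    rwa [e] at h

end Vale.Agent.Results.P295.VenereauOddFamily
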